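import Mathlib
import Vale.Agent.P161.Defs

/-!
Elementary real analysis.

`Y = Yq z w` solves `z Y² + 2 Y + (2 - z - 4 w) = 0` and `1 + z Y = √((1-z)² + 4 z w)`.
`integral_Yq`: substitute `w = φ x = x - z x (1 - x)`, `φ' = 1 + z (2x-1) > 0`, `φ` maps `[0,1]` onto
itself, `Yq z (φ x) = 2 x - 1`; use `integral_image_eq_integral_abs_deriv_smul`
(no measurability of `h` needed) and pass between `unitInterval` and `Set.Icc 0 1`
(`integral_subtype_comap`, `unitInterval.measurePreserving_coe` or similar).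
`Yq_lip`: `(Y - Y') (2 + z (Y + Y')) = (z - z') (1 - Y'²)`.
`kap_lip`: `Y/(1+zY) - Y'/(1+z'Y') = (ΔY - Y Y' Δz)/((1+zY)(1+z'Y'))`.
-/

namespace Vale.Agent.P161

open MeasureTheory Finset Filter

theorem amp_nonneg (x : unitInterval) : 0 ≤ amp x := sorry

theorem amp_le (x : unitInterval) : amp x ≤ 1 / 2 := sorry

theorem amp_le_self (x : unitInterval) : amp x ≤ x := sorry

theorem measurable_amp : Measurable amp := sorry

theorem measurable_sg (θ : ℝ) : Measurable (sg θ) := sorry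

theorem sg_cases (θ : ℝ) (x : unitInterval) : sg θ x = 1 ∨ sg θ x = -1 := sorry

theorem integral_sg {θ : ℝ} (h0 : 0 ≤ θ) (h1 : θ ≤ 1) (h : ℝ → ℝ) :
    ∫ x : unitInterval, h (sg θ x) = (1 + θ) / 2 * h 1 + (1 - θ) / 2 * h (-1) := sorry

theorem measurable_Yq : Measurable fun p : ℝ × ℝ => Yq p.1 p.2 := sorry

theorem abs_Yq_le {z : ℝ} (hz : |z| ≤ 1 / 2) (w : unitInterval) : |Yq z w| ≤ 1 := sorry

theorem integral_Yq {z : ℝ} (hz : |z| ≤ 1 / 2) (h : ℝ → ℝ) :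
    ∫ w : unitInterval, h (Yq z w) =
      ∫ w : unitInterval, h (2 * (w : ℝ) - 1) * (1 + z * (2 * (w : ℝ) - 1)) := sorry

theorem Yq_lip {z z' : ℝ} (hz : |z| ≤ 1 / 2) (hz' : |z'| ≤ 1 / 2) (w : unitInterval) :
    |Yq z w - Yq z' w| ≤ |z - z'| := sorry

theorem measurable_kap : Measurable fun p : ℝ × ℝ × ℝ => kap p.1 p.2.1 p.2.2 := sorry

theorem integral_kap {α m : ℝ} (h0 : 0 ≤ α) (h1 : α ≤ 1 / 2) (hm : |m| ≤ 1) :
    ∫ w : unitInterval, kap α m w = 0 := sorry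

theorem abs_kap_le {α m : ℝ} (h0 : 0 ≤ α) (h1 : α ≤ 1 / 2) (hm : |m| ≤ 1) (w : unitInterval) :
    |kap α m w| ≤ 2 * α := sorry

theorem kap_lip {α m m' : ℝ} (h0 : 0 ≤ α) (h1 : α ≤ 1 / 2) (hm : |m| ≤ 1) (hm' : |m'| ≤ 1)
    (w : unitInterval) : |kap α m w - kap α m' w| ≤ 8 * α ^ 2 * |m - m'| := sorry

theorem jump_sq_le {α m m' : ℝ} (h0 : 0 ≤ α) (h1 : α ≤ 1 / 2) (hm : |m| ≤ 1) (hm' : |m'| ≤ 1)
    (w : unitInterval) (C C' : ℝ) :
    (C * kap α m w - C' * kap α m' w) ^ 2 ≤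
      α ^ 2 * (8 * (C - C') ^ 2 + 32 * C' ^ 2 * (m - m') ^ 2) := sorry

end Vale.Agent.P161
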