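import Mathlib
import Vale.Agent.P161.Defs

/-!
Elementary real analysis, part two.
`cons_lip`: with `x, y` the two cavity values, `M₁ = (x+θy)/(1+θxy)`, `M₂ = (y+θx)/(1+θxy)`;
move `(x,y) → (x',y) → (x',y')`, solve the 2×2 system (determinant at least `(1-θ²)(1-θ²y²)(1-θ²x'²)`),
getting `|Δx| ≤ (|ΔM₁| + θ|ΔM₂|)/(1-θ)² ≤ 12(..)`; changing `θ` moves `M₁, M₂` by at most `12|Δθ|`.
-/

namespace Vale.Agent.P161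

open MeasureTheory Finset Filter

/-! slopes -/

theorem slope_nonneg {θ r : ℝ} (h0 : 0 ≤ θ) (h1 : θ ≤ 1) (hr : |r| ≤ 1) : 0 ≤ slope θ r := sorry

theorem slope_le {θ r : ℝ} (h0 : 0 ≤ θ) (h1 : θ ≤ 1) (hr : |r| ≤ 1) : slope θ r ≤ θ := sorry

theorem slope_neg (θ r : ℝ) : slope θ (-r) = slope θ r := sorry

theorem measurable_slope (θ : ℝ) : Measurable (slope θ) := sorry

theorem continuousOn_slope {θ : ℝ} (h1 : θ ^ 2 < 1) : ContinuousOn (slope θ) (Set.Icc (-1) 1) :=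
  sorry

theorem slope_sq_le {θ r : ℝ} (h1 : θ ^ 2 ≤ 1 / 2) (hr : |r| ≤ 1) :
    slope θ r ^ 2 ≤ θ ^ 2 * (1 - r ^ 2) := sorry

theorem slope_lip {θ θ' r r' : ℝ} (h0 : 0 ≤ θ) (h1 : θ ^ 2 ≤ 1 / 2) (h0' : 0 ≤ θ')
    (h1' : θ' ^ 2 ≤ 1 / 2) (hr : |r| ≤ 1) (hr' : |r'| ≤ 1) :
    |slope θ r - slope θ' r'| ≤ 2 * |r ^ 2 - r' ^ 2| + 6 * |θ - θ'| := sorry

theorem cons_sym {θ x y m₁ m₂ : ℝ} (h0 : 0 ≤ θ) (h1 : θ ^ 2 ≤ 1 / 2) (hx : |x| ≤ 1) (hy : |y| ≤ 1)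
    (e₁ : m₁ * (1 + θ * x * y) = x + θ * y) (e₂ : m₂ * (1 + θ * y * x) = y + θ * x) :
    (1 - m₂ ^ 2) * slope θ x = (1 - m₁ ^ 2) * slope θ y := sorry

theorem cons_abs_le {θ x y m : ℝ} (h0 : 0 ≤ θ) (h1 : θ ^ 2 ≤ 1 / 2) (hx : |x| ≤ 1) (hy : |y| ≤ 1)
    (e : m * (1 + θ * x * y) = x + θ * y) : |m| ≤ 4 * (|x| + |y|) := sorry

theorem cons_lip {θ θ' x y m₁ m₂ x' y' m₁' m₂' : ℝ} (h0 : 0 ≤ θ) (h1 : θ ^ 2 ≤ 1 / 2)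
    (h0' : 0 ≤ θ') (h1' : θ' ^ 2 ≤ 1 / 2) (hx : |x| ≤ 1) (hy : |y| ≤ 1) (hx' : |x'| ≤ 1)
    (hy' : |y'| ≤ 1)
    (e₁ : m₁ * (1 + θ * x * y) = x + θ * y) (e₂ : m₂ * (1 + θ * y * x) = y + θ * x)
    (e₁' : m₁' * (1 + θ' * x' * y') = x' + θ' * y')
    (e₂' : m₂' * (1 + θ' * y' * x') = y' + θ' * x') :
    |x - x'| ≤ 12 * (|m₁ - m₁'| + |m₂ - m₂'|) + 300 * |θ - θ'| := sorry

/-! information combining -/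

theorem comb_ge {a c : ℝ} (ha : |a| < 1) (hc : |c| < 1) :
    c ^ 2 ≤ ((a + c) ^ 2 / (1 + a * c) + (a - c) ^ 2 / (1 - a * c)) / 2 := sorry

theorem comb_ge' {a c : ℝ} (ha : |a| < 1) (hc : |c| < 1) :
    a ^ 2 + c ^ 2 - 2 * (a ^ 2 * c ^ 2) ≤
      ((a + c) ^ 2 / (1 + a * c) + (a - c) ^ 2 / (1 - a * c)) / 2 := sorry

theorem comb_le {a c : ℝ} (ha : |a| < 1) (hc : |c| < 1) :
    ((a + c) ^ 2 / (1 + a * c) + (a - c) ^ 2 / (1 - a * c)) / 2 ≤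
      a ^ 2 + c ^ 2 - a ^ 2 * c ^ 2 := sorry

/-- derivative argument, or termwise in the exponential series -/
theorem exp_mul_le {ε y : ℝ} (h0 : 0 ≤ ε) (h1 : ε ≤ 1) (hy : 0 ≤ y) :
    Real.exp (ε * y) ≤ 1 + ε * y + ε ^ 2 * (Real.exp y - 1) := sorry

/-- implicit Euler form of Gronwall: cut `[s,t]` into `n` steps with `L (t-s)/n ≤ 1/2` and use
`(1-y)⁻¹ ≤ exp (2y)` -/
theorem gronwall {f : ℝ → ℝ} {s t L E : ℝ} (hst : s ≤ t) (hL : 0 ≤ L) (hE : 0 ≤ E)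
    (hf : 0 ≤ f s)
    (h : ∀ u v, s ≤ u → u ≤ v → v ≤ t → f v ≤ f u + (v - u) * (L * f v + E)) :
    f t ≤ Real.exp (2 * L * (t - s)) * (f s + (t - s) * E) := sorry

/-- Arzela-Ascoli in the form needed: extract with `IsCompact.tendsto_subseq` in a countable
product of compact intervals indexed by `κ × ℚ` (at each positive rational the sequence is
bounded), then use a finite rational net of `[t₀, t₁]`. -/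
theorem exists_subseq_cauchy {κ : Type} [Fintype κ] (h : ℕ → κ → ℝ → ℝ)
    (hb : ∀ t₀ > (0 : ℝ), ∃ (j₀ : ℕ) (B : ℝ), ∀ j ≥ j₀, ∀ a, ∀ r ≥ t₀, |h j a r| ≤ B)
    (he : ∀ t₀ > (0 : ℝ), ∀ ε > (0 : ℝ), ∃ (j₀ : ℕ) (δ : ℝ), 0 < δ ∧ ∀ j ≥ j₀, ∀ a,
      ∀ r ≥ t₀, ∀ r' ≥ t₀, |r - r'| ≤ δ → |h j a r - h j a r'| ≤ ε) :
    ∃ ψ : ℕ → ℕ, StrictMono ψ ∧ ∀ t₀ > (0 : ℝ), ∀ t₁ : ℝ, ∀ ε > (0 : ℝ), ∃ i₀ : ℕ,
      ∀ i ≥ i₀, ∀ j ≥ i₀, ∀ a, ∀ r, t₀ ≤ r → r ≤ t₁ → |h (ψ i) a r - h (ψ j) a r| ≤ ε := sorry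

end Vale.Agent.P161
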