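import Mathlib
import Vale.Agent.P161.Defs

/-!
Geometry of the Cayley tree.  Everything follows from the fields of `TG` by induction on `len`.
Hints: `len (g * h) ≤ len g + len h` by induction on `len h` (use `desc`, `step`);
`len_inv` from subadditivity applied both ways.
`side_child`: if `dist u (v s_c) < dist u v` and `c ≠ a` then by `uniq` (at `g = u⁻¹ v`) and `step`
`dist u v < dist u (v s_a)`.
-/

namespace Vale.Agent.P161

open Finset
open scoped Classical

namespace TG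

variable {d : ℕ} {Γ : Type} [Group Γ] (T : TG d Γ)

theorem mul_s_s (v : Γ) (a : Fin d) : v * T.s a * T.s a = v := sorry

theorem s_inv (a : Fin d) : (T.s a)⁻¹ = T.s a := sorry

theorem s_inj {a c : Fin d} (h : T.s a = T.s c) : a = c := sorry

theorem len_inv (x : Γ) : T.len x⁻¹ = T.len x := sorry

theorem dist_comm (u v : Γ) : T.dist u v = T.dist v u := sorry

theorem dist_self (v : Γ) : T.dist v v = 0 := sorry

theorem dist_eq_zero {u v : Γ} : T.dist u v = 0 ↔ u = v := sorry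

theorem dist_triangle (u v w : Γ) : T.dist u w ≤ T.dist u v + T.dist v w := sorry

theorem dist_mul (x u v : Γ) : T.dist (x * u) (x * v) = T.dist u v := sorry

theorem dist_one (u : Γ) : T.dist 1 u = T.len u := sorry

theorem dist_s (v : Γ) (a : Fin d) : T.dist v (v * T.s a) = 1 := sorry

theorem dist_step (u v : Γ) (a : Fin d) :
    T.dist u (v * T.s a) = T.dist u v + 1 ∨ T.dist u (v * T.s a) + 1 = T.dist u v := sorry

include T in
theorem countable : Countable Γ := sorry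

theorem self_mem_side (v : Γ) (a : Fin d) : v ∈ T.side v a := sorry

theorem mem_side_iff_not (u v : Γ) (a : Fin d) :
    u ∈ T.side v a ↔ u ∉ T.side (v * T.s a) a := sorry

theorem exists_dir {u v : Γ} (h : u ≠ v) : ∃ c, u ∈ T.side (v * T.s c) c := sorry

theorem dir_unique {u v : Γ} {a c : Fin d} (ha : u ∈ T.side (v * T.s a) a)
    (hc : u ∈ T.side (v * T.s c) c) : a = c := sorry

theorem dist_of_mem_side {u v : Γ} {c : Fin d} (h : u ∈ T.side (v * T.s c) c) :
    T.dist v u = T.dist (v * T.s c) u + 1 := sorry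

theorem side_child {v : Γ} {a c : Fin d} (h : c ≠ a) : T.side (v * T.s c) c ⊆ T.side v a := sorry

theorem mem_side_iff (u v : Γ) (a : Fin d) :
    u ∈ T.side v a ↔ u = v ∨ ∃ c, c ≠ a ∧ u ∈ T.side (v * T.s c) c := sorry

theorem mem_side_iff_br (u v : Γ) (a : Fin d) :
    u ∈ T.side v a ↔ u = v ∨ u ∈ T.br v ({a} : Set (Fin d))ᶜ := sorry

theorem br_single (v : Γ) (a : Fin d) : T.br v {a} = T.side (v * T.s a) a := sorry

theorem not_mem_br (v : Γ) (C : Set (Fin d)) : v ∉ T.br v C := sorry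

theorem br_disjoint (v : Γ) {C C' : Set (Fin d)} (h : Disjoint C C') :
    Disjoint (T.br v C) (T.br v C') := sorry

theorem mul_mem_side (x u v : Γ) (a : Fin d) : x * u ∈ T.side (x * v) a ↔ u ∈ T.side v a := sorry

theorem mem_lev {k : ℕ} {u v : Γ} {a : Fin d} :
    u ∈ T.lev k v a ↔ u ∈ T.side v a ∧ T.dist v u = k := sorry

theorem mem_sph {k : ℕ} {u v : Γ} : u ∈ T.sph v k ↔ T.dist v u = k := sorry

theorem mem_ball {n : ℕ} {u v : Γ} : u ∈ T.ball v n ↔ T.dist v u ≤ n := sorry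

theorem sum_lev_succ (h : Γ → ℝ) (k : ℕ) (v : Γ) (a : Fin d) :
    ∑ u ∈ T.lev (k + 1) v a, h u = ∑ c ∈ univ.erase a, ∑ u ∈ T.lev k (v * T.s c) c, h u := sorry

theorem sum_sph_succ (h : Γ → ℝ) (k : ℕ) (v : Γ) :
    ∑ u ∈ T.sph v (k + 1), h u = ∑ c, ∑ u ∈ T.lev k (v * T.s c) c, h u := sorry

theorem sum_ball (h : Γ → ℝ) (n : ℕ) (v : Γ) :
    ∑ u ∈ T.ball v n, h u = ∑ k ∈ range (n + 1), ∑ u ∈ T.sph v k, h u := sorry

theorem card_lev (k : ℕ) (v : Γ) (a : Fin d) : (T.lev k v a).card = (d - 1) ^ k := sorry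

theorem card_sph_succ (k : ℕ) (v : Γ) : (T.sph v (k + 1)).card = d * (d - 1) ^ k := sorry

theorem exists_ball (v : Γ) (S : Finset Γ) : ∃ n, S ⊆ T.ball v n := sorry

/-- uses `card (sph v k) ≤ 2 (d-1)^k` -/
theorem sum_pow_dist_le (hd : 3 ≤ d) {ρ : ℝ} (h0 : 0 ≤ ρ) (h1 : ((d : ℝ) - 1) * ρ < 1) (v : Γ)
    (R : ℕ) (S : Finset Γ) (hS : ∀ u ∈ S, R ≤ T.dist v u) :
    ∑ u ∈ S, ρ ^ T.dist v u ≤ 2 * (((d : ℝ) - 1) * ρ) ^ R / (1 - ((d : ℝ) - 1) * ρ) := sorry

end TG

end Vale.Agent.P161
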