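import Mathlib
import Vale.Agent.P161.Geo

/-!
Path products and automorphisms of the Cayley tree.  Induct on `dist v u` with `exists_dir`,
`dist_of_mem_side`, `dir_unique` (exactly one term of the sum in `gp` is non-zero).
For `g_congr` note that if `v ∈ side y c` and `v s_a ∉ side y c` then `y = v` and `c = a`.
`aut_dist`: `≤` by induction on the distance, then apply it to `φ.symm`.
-/

namespace Vale.Agent.P161

open Finset
open scoped Classical

namespace TG

variable {d : ℕ} {Γ : Type} [Group Γ] (T : TG d Γ)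

/-! path products -/

theorem g_self (B : Γ × Fin d → ℝ) (v : Γ) : T.g B v v = 1 := sorry

theorem g_side (B : Γ × Fin d → ℝ) {u v : Γ} {c : Fin d} (h : u ∈ T.side (v * T.s c) c) :
    T.g B v u = B (v * T.s c, c) * T.g B (v * T.s c) u := sorry

theorem g_mul (B B' : Γ × Fin d → ℝ) (v u : Γ) :
    T.g (fun e => B e * B' e) v u = T.g B v u * T.g B' v u := sorry

theorem g_nonneg {B : Γ × Fin d → ℝ} (h : ∀ e, 0 ≤ B e) (v u : Γ) : 0 ≤ T.g B v u := sorry

theorem abs_g_le {B : Γ × Fin d → ℝ} {β : ℝ} (h : ∀ e, |B e| ≤ β) (v u : Γ) :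
    |T.g B v u| ≤ β ^ T.dist v u := sorry

theorem g_const (β : ℝ) (v u : Γ) : T.g (fun _ => β) v u = β ^ T.dist v u := sorry

/-- `g B v u` only sees the edges `(y, c)` on the path: `u ∈ side y c`, `v ∉ side y c` -/
theorem g_congr {B B' : Γ × Fin d → ℝ} {v u : Γ}
    (h : ∀ y c, u ∈ T.side y c → v ∉ T.side y c → B (y, c) = B' (y, c)) :
    T.g B v u = T.g B' v u := sorry

theorem continuous_g (v u : Γ) : Continuous fun B : Γ × Fin d → ℝ => T.g B v u := sorry

theorem g_mulLeft (B : Γ × Fin d → ℝ) (x v u : Γ) :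
    T.g B (x * v) (x * u) = T.g (fun e => B (x * e.1, e.2)) v u := sorry

theorem sum_lev_g (w : Γ × Fin d → ℝ) (j : ℕ) (y : Γ) (c : Fin d) :
    ∑ u ∈ T.lev j y c, w (y, c) * T.g w y u = T.lv w j (y, c) := sorry

/-! automorphisms -/

theorem cay_adj {u v : Γ} : T.cay.Adj u v ↔ ∃ a, v = u * T.s a := sorry

theorem aut_step (φ : T.cay ≃g T.cay) (v : Γ) (a : Fin d) :
    ∃ c, φ (v * T.s a) = φ v * T.s c := sorry

theorem aut_dist (φ : T.cay ≃g T.cay) (u v : Γ) : T.dist (φ u) (φ v) = T.dist u v := sorry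

theorem aut_side (φ : T.cay ≃g T.cay) {v : Γ} {a c : Fin d} (h : φ (v * T.s a) = φ v * T.s c)
    (u : Γ) : φ u ∈ T.side (φ v) c ↔ u ∈ T.side v a := sorry

theorem aut_g (φ : T.cay ≃g T.cay) {B B' : Γ × Fin d → ℝ}
    (h : ∀ v a c, φ (v * T.s a) = φ v * T.s c → B' (φ v, c) = B (v, a)) (v u : Γ) :
    T.g B' (φ v) (φ u) = T.g B v u := sorry

theorem exists_lmul (x : Γ) : ∃ φ : T.cay ≃g T.cay, φ.toEquiv = Equiv.mulLeft x := sorry

theorem ball_connected (v : Γ) (n : ℕ) : (T.cay.induce (T.ball v n : Set Γ)).Connected := sorry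

/-- a connected finite set contains the geodesics: the neighbour of `u` towards `o` is in `D` -/
theorem connected_parent {D : Finset Γ} (hD : (T.cay.induce (D : Set Γ)).Connected) {o u : Γ}
    (ho : o ∈ D) (hu : u ∈ D) {a : Fin d} (ha : o ∈ T.side (u * T.s a) a) : u * T.s a ∈ D := sorry

end TG

end Vale.Agent.P161
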