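import Mathlib
import Vale.Agent.P161.Geo

/-!
Weighted level sums: inductions on the level, `card (univ.erase a) = d - 1`.
-/

namespace Vale.Agent.P161

open Finset
open scoped Classical

namespace TG

variable {d : ℕ} {Γ : Type} [Group Γ] (T : TG d Γ)

/-! level sums -/

theorem lv_nonneg {w : Γ × Fin d → ℝ} (h : ∀ e, 0 ≤ w e) (j : ℕ) (e : Γ × Fin d) :
    0 ≤ T.lv w j e := sorry

theorem abs_lv_le {w : Γ × Fin d → ℝ} {β : ℝ} (h : ∀ e, |w e| ≤ β) (j : ℕ) (e : Γ × Fin d) :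
    |T.lv w j e| ≤ β * (((d : ℝ) - 1) * β) ^ j := sorry

theorem continuous_lv (j : ℕ) (e : Γ × Fin d) :
    Continuous fun w : Γ × Fin d → ℝ => T.lv w j e := sorry

theorem lv_congr {w w' : Γ × Fin d → ℝ} {e : Γ × Fin d}
    (h : ∀ f : Γ × Fin d, T.side f.1 f.2 ⊆ T.side e.1 e.2 → w f = w' f) (j : ℕ) :
    T.lv w j e = T.lv w' j e := sorry

theorem lv_mulLeft (w : Γ × Fin d → ℝ) (x : Γ) (j : ℕ) (v : Γ) (a : Fin d) :
    T.lv w j (x * v, a) = T.lv (fun e => w (x * e.1, e.2)) j (v, a) := sorry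

theorem sum_lv_succ (w : Γ × Fin d → ℝ) (R : ℕ) (e : Γ × Fin d) :
    ∑ j ∈ range (R + 1), T.lv w j e =
      w e * (1 + T.Tc (fun f => ∑ j ∈ range R, T.lv w j f) e) := sorry

theorem summable_lv {w : Γ × Fin d → ℝ} {β : ℝ} (h : ∀ e, |w e| ≤ β)
    (hβ : ((d : ℝ) - 1) * β < 1) (e : Γ × Fin d) : Summable fun j => T.lv w j e := sorry

theorem qq_eq {w : Γ × Fin d → ℝ} {β : ℝ} (h : ∀ e, |w e| ≤ β)
    (hβ : ((d : ℝ) - 1) * β < 1) (e : Γ × Fin d) :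
    T.qq w e = w e * (1 + T.Tc (T.qq w) e) := sorry

theorem abs_qq_le {w : Γ × Fin d → ℝ} {β : ℝ} (h : ∀ e, |w e| ≤ β)
    (hβ : ((d : ℝ) - 1) * β < 1) (e : Γ × Fin d) :
    |T.qq w e| ≤ β / (1 - ((d : ℝ) - 1) * β) := sorry

/-- polarized Cauchy-Schwarz; induct on `j` for all `x y e` -/
theorem lv_mul_le (b b' : Γ × Fin d → ℝ) (j : ℕ) (e : Γ × Fin d) (x y : ℝ) :
    x * y * T.lv (fun f => b f * b' f) j e ≤
      (x ^ 2 * T.lv (fun f => b f ^ 2) j e + y ^ 2 * T.lv (fun f => b' f ^ 2) j e) / 2 := sorry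

end TG

end Vale.Agent.P161
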