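import Mathlib
import Vale.Agent.P161.Defs

/-!
Bounded measurable functions, the `L²` norm, and two Borel-Cantelli style lemmas
(for these: `∑ ∫ |F n| < ∞` gives almost sure summability via `lintegral_tsum`/`ae_lt_top`, or
`integrable_of_summable_norm_integral`-style lemmas, or `measure_limsup_atTop_eq_zero`).
-/

namespace Vale.Agent.P161

open MeasureTheory Finset Filter
open scoped Classical

section bd

variable {Ω : Type} [MeasurableSpace Ω] {f h : Ω → ℝ}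

theorem Bd.const (c : ℝ) : Bd fun _ : Ω => c := sorry

theorem Bd.add (hf : Bd f) (hh : Bd h) : Bd fun ω => f ω + h ω := sorry

theorem Bd.sub (hf : Bd f) (hh : Bd h) : Bd fun ω => f ω - h ω := sorry

theorem Bd.mul (hf : Bd f) (hh : Bd h) : Bd fun ω => f ω * h ω := sorry

theorem Bd.const_mul (c : ℝ) (hf : Bd f) : Bd fun ω => c * f ω := sorry

theorem Bd.pow (hf : Bd f) (n : ℕ) : Bd fun ω => f ω ^ n := sorry

theorem Bd.abs (hf : Bd f) : Bd fun ω => |f ω| := sorry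

theorem Bd.sum {κ : Type} (S : Finset κ) {f : κ → Ω → ℝ} (hf : ∀ i ∈ S, Bd (f i)) :
    Bd fun ω => ∑ i ∈ S, f i ω := sorry

theorem Bd.prod {κ : Type} (S : Finset κ) {f : κ → Ω → ℝ} (hf : ∀ i ∈ S, Bd (f i)) :
    Bd fun ω => ∏ i ∈ S, f i ω := sorry

theorem Bd.ite {p : Ω → Prop} (hp : MeasurableSet {ω | p ω}) (hf : Bd f) (hh : Bd h) :
    Bd fun ω => if p ω then f ω else h ω := sorry

theorem Bd.comp {Ω' : Type} [MeasurableSpace Ω'] (hf : Bd f) {φ : Ω' → Ω} (hφ : Measurable φ) :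
    Bd fun ω => f (φ ω) := sorry

theorem Bd.integrable (hf : Bd f) (μ : Measure Ω) [IsFiniteMeasure μ] : Integrable f μ := sorry

/-- partial integrals of a bounded measurable function -/
theorem Bd.integral_right {Ω' : Type} [MeasurableSpace Ω'] {F : Ω × Ω' → ℝ} (hF : Bd F)
    (μ : Measure Ω') [IsFiniteMeasure μ] : Bd fun ω => ∫ x, F (ω, x) ∂μ := sorry

variable (μ : Measure Ω) [IsProbabilityMeasure μ]

theorem nrm_nonneg (f : Ω → ℝ) : 0 ≤ nrm μ f := sorry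

theorem nrm_sq (f : Ω → ℝ) : nrm μ f ^ 2 = ∫ ω, f ω ^ 2 ∂μ := sorry

theorem nrm_le_iff {c : ℝ} (hc : 0 ≤ c) : nrm μ f ≤ c ↔ ∫ ω, f ω ^ 2 ∂μ ≤ c ^ 2 := sorry

theorem abs_integral_mul_le (hf : Bd f) (hh : Bd h) :
    |∫ ω, f ω * h ω ∂μ| ≤ nrm μ f * nrm μ h := sorry

theorem integral_abs_le_nrm (hf : Bd f) : ∫ ω, |f ω| ∂μ ≤ nrm μ f := sorry

theorem nrm_add_le (hf : Bd f) (hh : Bd h) :
    nrm μ (fun ω => f ω + h ω) ≤ nrm μ f + nrm μ h := sorry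

theorem nrm_sum_le {κ : Type} (S : Finset κ) {f : κ → Ω → ℝ} (hf : ∀ i ∈ S, Bd (f i)) :
    nrm μ (fun ω => ∑ i ∈ S, f i ω) ≤ ∑ i ∈ S, nrm μ (f i) := sorry

theorem nrm_mono (hf : Bd f) (hh : Bd h) {c : ℝ} (hc : 0 ≤ c)
    (hle : ∀ᵐ ω ∂μ, |f ω| ≤ c * |h ω|) : nrm μ f ≤ c * nrm μ h := sorry

theorem nrm_const (c : ℝ) : nrm μ (fun _ => c) = |c| := sorry

/-- bounded convergence -/
theorem tendsto_integral_bd {F : ℕ → Ω → ℝ} (hF : ∀ n, Measurable (F n)) {C : ℝ}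
    (hC : ∀ n ω, |F n ω| ≤ C) (hl : ∀ᵐ ω ∂μ, Tendsto (fun n => F n ω) atTop (nhds (f ω))) :
    Tendsto (fun n => ∫ ω, F n ω ∂μ) atTop (nhds (∫ ω, f ω ∂μ)) := sorry

/-- a sequence whose squared `L²` increments decay geometrically converges almost surely
(`∑ ∫ |F (n+1) - F n| < ∞`) -/
theorem ae_tendsto_limsup {F : ℕ → Ω → ℝ} (hF : ∀ n, Bd (F n)) {A ρ : ℝ} (h0 : 0 ≤ ρ)
    (h1 : ρ < 1) (n₀ : ℕ) (h : ∀ n, n₀ ≤ n → ∫ ω, (F (n + 1) ω - F n ω) ^ 2 ∂μ ≤ A * ρ ^ n) :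
    ∀ᵐ ω ∂μ, Tendsto (fun n => F n ω) atTop (nhds (limsup (fun n => F n ω) atTop)) := sorry

/-- geometric `L²` closeness gives almost sure closeness -/
theorem ae_tendsto_zero {F : ℕ → Ω → ℝ} (hF : ∀ n, Bd (F n)) {A ρ : ℝ} (h0 : 0 ≤ ρ)
    (h1 : ρ < 1) (n₀ : ℕ) (h : ∀ n, n₀ ≤ n → ∫ ω, F n ω ^ 2 ∂μ ≤ A * ρ ^ n) :
    ∀ᵐ ω ∂μ, Tendsto (fun n => F n ω) atTop (nhds 0) := sorry

end bd

end Vale.Agent.P161
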