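import Mathlib
import Vale.Agent.P161.Bd

/-!
Product-measure tools.  Measure preservation is proved with `Measure.eq_infinitePi`,
`infinitePi_pi`, `infinitePi_map_pi`.  `mp_piecewise` is the basic resampling lemma:
the preimage of a box is a product of two boxes.  `integral_mul_indep` follows from it:
`∫ f g = ∫∫ f (ω) g (ω')` since `f (A.piecewise ω ω') = f ω`, `g (A.piecewise ω ω') = g ω'`.
`mp_update` is `mp_piecewise` for `A = {i}ᶜ` composed with evaluation (or direct).
`exists_code`: `MeasureTheory.Measure.exists_measurable_map_eq` for `PP K`, then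
`infinitePi_map_pi` and `infinitePi_map_curry_symm`.
`exists_approx`: `MemLp.induction_dense` with
`exists_measure_symmDiff_lt_of_generateFrom_isSetRing` (or `..._isSetSemiring`) for
`measurableCylinders`.
-/

namespace Vale.Agent.P161

open MeasureTheory Finset Filter
open scoped Classical

variable {ι : Type}

theorem mp_piecewise (A : Set ι) :
    MeasurePreserving (fun p : (ι → unitInterval) × (ι → unitInterval) => A.piecewise p.1 p.2)
      ((PP ι).prod (PP ι)) (PP ι) := sorry

theorem integral_mul_indep (A : Set ι) {f h : (ι → unitInterval) → ℝ} (hf : Bd f) (hh : Bd h)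
    (df : DependsOn f A) (dh : DependsOn h Aᶜ) :
    ∫ ω, f ω * h ω ∂PP ι = (∫ ω, f ω ∂PP ι) * ∫ ω, h ω ∂PP ι := sorry

theorem mp_update (i : ι) :
    MeasurePreserving (fun p : (ι → unitInterval) × unitInterval => Function.update p.1 i p.2)
      ((PP ι).prod volume) (PP ι) := sorry

theorem integral_update (i : ι) {f : (ι → unitInterval) → ℝ} (hf : Bd f) :
    ∫ ω, f ω ∂PP ι = ∫ ω, (∫ x, f (Function.update ω i x)) ∂PP ι := sorry

theorem integral_update' (i : ι) {f : (ι → unitInterval) → ℝ} (hf : Bd f) :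
    ∫ ω, f ω ∂PP ι = ∫ x, ∫ ω, f (Function.update ω i x) ∂PP ι := sorry

theorem mp_comp {ι' : Type} {j : ι' → ι} (hj : Function.Injective j) :
    MeasurePreserving (fun (ω : ι → unitInterval) (k : ι') => ω (j k)) (PP ι) (PP ι') := sorry

theorem mp_act {Γ K : Type} (φ : Γ ≃ Γ) :
    MeasurePreserving (act φ : (Γ × K → unitInterval) → _) (PP (Γ × K)) (PP (Γ × K)) := sorry

theorem integral_act {Γ K : Type} (φ : Γ ≃ Γ) {f : (Γ × K → unitInterval) → ℝ}
    (hf : Measurable f) : ∫ ω, f (act φ ω) ∂PP (Γ × K) = ∫ ω, f ω ∂PP (Γ × K) := sorry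

theorem mp_flip (A : Set ι) :
    MeasurePreserving
      (fun (ω : ι → unitInterval) (i : ι) => if i ∈ A then unitInterval.symm (ω i) else ω i)
      (PP ι) (PP ι) := sorry

theorem ae_ne_const (i : ι) (c : ℝ) : ∀ᵐ ω ∂PP ι, (ω i : ℝ) ≠ c := sorry

theorem ae_ne_sub {i j : ι} (hij : i ≠ j) (c : ℝ) : ∀ᵐ ω ∂PP ι, (ω i : ℝ) - ω j ≠ c := sorry

theorem ae_tm_inj {Γ : Type} [Countable Γ] : ∀ᵐ ω ∂PO Γ, Function.Injective (tm ω) := sorry

theorem exists_code (Γ K : Type) [Countable K] :
    ∃ f : unitInterval → K → unitInterval, Measurable f ∧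
      MeasurePreserving (fun (U : Γ → unitInterval) (p : Γ × K) => f (U p.1) p.2)
        (PP Γ) (PP (Γ × K)) := sorry

/-- bounded measurable functions are `L²` limits of functions of finitely many coordinates -/
theorem exists_approx {f : (ι → unitInterval) → ℝ} (hf : Bd f) {ε : ℝ} (hε : 0 < ε) :
    ∃ (h : (ι → unitInterval) → ℝ) (S : Finset ι), Bd h ∧ DependsOn h (S : Set ι) ∧
      nrm (PP ι) (fun ω => f ω - h ω) ≤ ε := sorry

end Vale.Agent.P161
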