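import Mathlib
import Vale.Agent.P161.GeoB
import Vale.Agent.P161.GeoC
import Vale.Agent.P161.Prod
import Vale.Agent.P161.Ana
import Vale.Agent.P161.AnaB

/-!
The Ising functional through independent edge signs.

* `chi_step`: `chi (v s_c) u = sg(edge v,c) * chi v u` (both cases of `mem_side_iff_not`,
  `g_side`, and `sg² = 1`; the edge `s(v, v s_c)` is symmetric).
* `Ex_root`: by induction on `dist 1 v`, `chi v · = ε * chi 1 ·` with `ε = ±1` pointwise, so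
  `f (chi v) + f (- chi v)` does not depend on `v`.
* `chi_dep`: for `u ∈ side (v s_c) c`, `chi τ v u` only uses pairs `s(y, y s_a)` with
  `y ∈ side (v s_c) c` and `y s_a ∈ side (v s_c) c ∪ {v}` (`g_congr`).
* `Ec_mul`: `integral_mul_indep` with `A = {e | ∀ x ∈ e, x = v ∨ x ∈ br v C}`.
* `Ec_step`: `integral_update` at the coordinate `s(v, v s_a)` and `integral_sg`.
* `Ex_aut`: `mp_comp` for `Sym2.map φ`, `aut_g`, `Ex_root`.
Boundedness of `f (s * chi)`: `f` is continuous on the compact cube `[-1,1]^Γ`.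
-/

namespace Vale.Agent.P161

open MeasureTheory Finset Filter
open scoped Classical

/-- configurations of signs -/
def Pm {Γ : Type} (σ : Γ → ℝ) : Prop := ∀ u, σ u = 1 ∨ σ u = -1

theorem continuous_W {Γ : Type} (F : Finset (Γ × ℕ)) (st : Γ × ℕ → ℝ) : Continuous (W F st) :=
  sorry

theorem continuous_cyl {Γ : Type} (D : Finset Γ) (η : Γ → ℤˣ) : Continuous (cyl D η) := sorry

namespace TG

variable {d : ℕ} {Γ : Type} [Group Γ] (T : TG d Γ)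

theorem chi_self (θ : ℝ) (τ : Sym2 Γ → unitInterval) (v : Γ) : T.chi θ τ v v = 1 := sorry

theorem chi_cases (θ : ℝ) (τ : Sym2 Γ → unitInterval) (v u : Γ) :
    T.chi θ τ v u = 1 ∨ T.chi θ τ v u = -1 := sorry

theorem chi_step (θ : ℝ) (τ : Sym2 Γ → unitInterval) (v u : Γ) (c : Fin d) :
    T.chi θ τ (v * T.s c) u = sg θ (τ s(v, v * T.s c)) * T.chi θ τ v u := sorry

theorem measurable_chi (θ : ℝ) (v : Γ) :
    Measurable fun (τ : Sym2 Γ → unitInterval) (u : Γ) => T.chi θ τ v u := sorry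

theorem bd_chi (θ : ℝ) (v : Γ) {s : ℝ} (hs : s = 1 ∨ s = -1) {f : (Γ → ℝ) → ℝ}
    (hf : Continuous f) : Bd fun τ : Sym2 Γ → unitInterval => f fun u => s * T.chi θ τ v u :=
  sorry

theorem Ec_const (θ : ℝ) (v : Γ) (s c : ℝ) : T.Ec θ v s (fun _ => c) = c := sorry

theorem Ec_add (θ : ℝ) (v : Γ) {s : ℝ} (hs : s = 1 ∨ s = -1) {f h : (Γ → ℝ) → ℝ}
    (hf : Continuous f) (hh : Continuous h) :
    T.Ec θ v s (fun σ => f σ + h σ) = T.Ec θ v s f + T.Ec θ v s h := sorry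

theorem Ec_const_mul (θ : ℝ) (v : Γ) (s c : ℝ) (f : (Γ → ℝ) → ℝ) :
    T.Ec θ v s (fun σ => c * f σ) = c * T.Ec θ v s f := sorry

theorem Ec_mono (θ : ℝ) (v : Γ) {s : ℝ} (hs : s = 1 ∨ s = -1) {f h : (Γ → ℝ) → ℝ}
    (hf : Continuous f) (hh : Continuous h) (hle : ∀ σ, Pm σ → f σ ≤ h σ) :
    T.Ec θ v s f ≤ T.Ec θ v s h := sorry

theorem Ec_congr (θ : ℝ) (v : Γ) {s : ℝ} (hs : s = 1 ∨ s = -1) {f h : (Γ → ℝ) → ℝ}
    (hle : ∀ σ, Pm σ → σ v = s → f σ = h σ) : T.Ec θ v s f = T.Ec θ v s h := sorry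

theorem Ec_neg (θ : ℝ) (v : Γ) (s : ℝ) (f : (Γ → ℝ) → ℝ) :
    T.Ec θ v s (fun σ => f fun u => -σ u) = T.Ec θ v (-s) f := sorry

theorem Ex_root (θ : ℝ) (v : Γ) {f : (Γ → ℝ) → ℝ} (hf : Continuous f) :
    T.Ex θ f = (T.Ec θ v 1 f + T.Ec θ v (-1) f) / 2 := sorry

theorem Ec_mul (θ : ℝ) (v : Γ) {s : ℝ} (hs : s = 1 ∨ s = -1) (C : Set (Fin d))
    {f h : (Γ → ℝ) → ℝ} (hf : Continuous f) (hh : Continuous h)
    (df : DependsOn f {u | u = v ∨ u ∈ T.br v C}) (dh : DependsOn h {u | u = v ∨ u ∈ T.br v Cᶜ}) :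
    T.Ec θ v s (fun σ => f σ * h σ) = T.Ec θ v s f * T.Ec θ v s h := sorry

theorem Ec_step {θ : ℝ} (h0 : 0 ≤ θ) (h1 : θ ≤ 1) (v : Γ) {s : ℝ} (hs : s = 1 ∨ s = -1)
    (a : Fin d) {f : (Γ → ℝ) → ℝ} (hf : Continuous f)
    (df : DependsOn f (T.side (v * T.s a) a)) :
    T.Ec θ v s f = (1 + θ * s) / 2 * T.Ec θ (v * T.s a) 1 f +
      (1 - θ * s) / 2 * T.Ec θ (v * T.s a) (-1) f := sorry

theorem Ex_aut (θ : ℝ) (φ : T.cay ≃g T.cay) {f : (Γ → ℝ) → ℝ} (hf : Continuous f) :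
    T.Ex θ (fun σ => f fun u => σ (φ u)) = T.Ex θ f := sorry

theorem Ex_const (θ c : ℝ) : T.Ex θ (fun _ => c) = c := sorry

theorem Ex_add (θ : ℝ) {f h : (Γ → ℝ) → ℝ} (hf : Continuous f) (hh : Continuous h) :
    T.Ex θ (fun σ => f σ + h σ) = T.Ex θ f + T.Ex θ h := sorry

theorem Ex_const_mul (θ c : ℝ) (f : (Γ → ℝ) → ℝ) :
    T.Ex θ (fun σ => c * f σ) = c * T.Ex θ f := sorry

theorem Ex_mono (θ : ℝ) {f h : (Γ → ℝ) → ℝ} (hf : Continuous f) (hh : Continuous h)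
    (hle : ∀ σ, Pm σ → f σ ≤ h σ) : T.Ex θ f ≤ T.Ex θ h := sorry

theorem Ex_congr (θ : ℝ) {f h : (Γ → ℝ) → ℝ} (hle : ∀ σ, Pm σ → f σ = h σ) :
    T.Ex θ f = T.Ex θ h := sorry

theorem Ex_neg (θ : ℝ) (f : (Γ → ℝ) → ℝ) : T.Ex θ (fun σ => f fun u => -σ u) = T.Ex θ f := sorry

/-- dominated convergence, or expand the product (`Finset.prod_one_add`) -/
theorem continuous_Ec_W (θ : ℝ) (v : Γ) {s : ℝ} (hs : s = 1 ∨ s = -1) (F : Finset (Γ × ℕ))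
    {f : (Γ → ℝ) → ℝ} (hf : Continuous f) :
    Continuous fun st : Γ × ℕ → ℝ => T.Ec θ v s fun σ => f σ * W F st σ := sorry

/-- interchange of the Ising expectation with an integral over a parameter -/
theorem integral_Ex {Ω : Type} [MeasurableSpace Ω] (μ : Measure Ω) [IsProbabilityMeasure μ]
    (θ : ℝ) (F : Finset (Γ × ℕ)) {st : Ω → Γ × ℕ → ℝ} (hst : Measurable st)
    (ha : ∀ ω, Adm (st ω)) {c : ℝ} (hc : ∀ σ, Pm σ → ∫ ω, W F (st ω) σ ∂μ = c) :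
    ∫ ω, T.Zf θ F (st ω) ∂μ = c := sorry

end TG

end Vale.Agent.P161
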