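import Mathlib
import Vale.Agent.P161.IsingA

/-!
Posterior magnetizations, cavity magnetizations, covariance formula.
Write `z₊ = Ec θ v 1 (W F st)`, `z₋ = Ec θ v (-1) (W F st)`.  Then `Zf = (z₊+z₋)/2` (`Ex_root`),
`mag v = (z₊-z₋)/(z₊+z₋)` (`Ec_congr`), which is `Ec_W_eq`.
`Ec_W_union` is `Ec_mul`.  `mag_step` is `Ec_step`.
`cons`: `F = Fs F (v,a) ∪ Fs F (v s_a, a)` is `Sep v` with `C = {a}ᶜ`.
-/

namespace Vale.Agent.P161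

open MeasureTheory Finset Filter
open scoped Classical

namespace TG

variable {d : ℕ} {Γ : Type} [Group Γ] (T : TG d Γ)

theorem Ec_W_pos (θ : ℝ) (F : Finset (Γ × ℕ)) {st : Γ × ℕ → ℝ} (ha : Adm st) (v : Γ) {s : ℝ}
    (hs : s = 1 ∨ s = -1) : (1 / 2) ^ F.card ≤ T.Ec θ v s (W F st) := sorry

theorem Ec_W_le (θ : ℝ) (F : Finset (Γ × ℕ)) {st : Γ × ℕ → ℝ} (ha : Adm st) (v : Γ) {s : ℝ}
    (hs : s = 1 ∨ s = -1) : T.Ec θ v s (W F st) ≤ 2 ^ F.card := sorry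

theorem Zf_ge (θ : ℝ) (F : Finset (Γ × ℕ)) {st : Γ × ℕ → ℝ} (ha : Adm st) :
    (1 / 2) ^ F.card ≤ T.Zf θ F st := sorry

theorem Zf_pos (θ : ℝ) (F : Finset (Γ × ℕ)) {st : Γ × ℕ → ℝ} (ha : Adm st) :
    0 < T.Zf θ F st := sorry

theorem Zf_le (θ : ℝ) (F : Finset (Γ × ℕ)) {st : Γ × ℕ → ℝ} (ha : Adm st) :
    T.Zf θ F st ≤ 2 ^ F.card := sorry

theorem Ec_W_eq (θ : ℝ) (F : Finset (Γ × ℕ)) {st : Γ × ℕ → ℝ} (ha : Adm st) (v : Γ) {s : ℝ}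
    (hs : s = 1 ∨ s = -1) : T.Ec θ v s (W F st) = T.Zf θ F st * (1 + s * T.mag θ F st v) := sorry

theorem abs_mag_lt (θ : ℝ) (F : Finset (Γ × ℕ)) {st : Γ × ℕ → ℝ} (ha : Adm st) (v : Γ) :
    |T.mag θ F st v| < 1 := sorry

theorem continuous_Zf (θ : ℝ) (F : Finset (Γ × ℕ)) : Continuous (T.Zf θ F) := sorry

theorem measurable_nu (θ : ℝ) (F : Finset (Γ × ℕ)) {f : (Γ → ℝ) → ℝ} (hf : Continuous f) :
    Measurable fun st => T.nu θ F st f := sorry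

theorem bdA_nu (θ : ℝ) (F : Finset (Γ × ℕ)) {f : (Γ → ℝ) → ℝ} (hf : Continuous f) :
    BdA fun st => T.nu θ F st f := sorry

theorem measurable_mag (θ : ℝ) (F : Finset (Γ × ℕ)) (v : Γ) :
    Measurable fun st => T.mag θ F st v := sorry

theorem measurable_cav (θ : ℝ) (F : Finset (Γ × ℕ)) (e : Γ × Fin d) :
    Measurable fun st => T.cav θ F st e := sorry

theorem Zf_congr (θ : ℝ) (F : Finset (Γ × ℕ)) {st st' : Γ × ℕ → ℝ} (h : ∀ j ∈ F, st j = st' j) :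
    T.Zf θ F st = T.Zf θ F st' := sorry

theorem nu_congr (θ : ℝ) (F : Finset (Γ × ℕ)) {st st' : Γ × ℕ → ℝ} (h : ∀ j ∈ F, st j = st' j)
    (f : (Γ → ℝ) → ℝ) : T.nu θ F st f = T.nu θ F st' f := sorry

theorem Zf_subset (θ : ℝ) {F F' : Finset (Γ × ℕ)} (h : F ⊆ F') {st : Γ × ℕ → ℝ}
    (hz : ∀ j ∈ F', j ∉ F → st j = 0) : T.Zf θ F' st = T.Zf θ F st := sorry

theorem nu_subset (θ : ℝ) {F F' : Finset (Γ × ℕ)} (h : F ⊆ F') {st : Γ × ℕ → ℝ}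
    (hz : ∀ j ∈ F', j ∉ F → st j = 0) (f : (Γ → ℝ) → ℝ) : T.nu θ F' st f = T.nu θ F st f := sorry

theorem Zf_zero (θ : ℝ) (F : Finset (Γ × ℕ)) : T.Zf θ F 0 = 1 := sorry

theorem nu_zero (θ : ℝ) (F : Finset (Γ × ℕ)) (f : (Γ → ℝ) → ℝ) : T.nu θ F 0 f = T.Ex θ f := sorry

theorem mag_empty (θ : ℝ) (st : Γ × ℕ → ℝ) (v : Γ) : T.mag θ ∅ st v = 0 := sorry

theorem Zf_single (θ : ℝ) (st : Γ × ℕ → ℝ) (i : Γ × ℕ) : T.Zf θ {i} st = 1 := sorry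

theorem mag_single (θ : ℝ) (st : Γ × ℕ → ℝ) (i : Γ × ℕ) : T.mag θ {i} st i.1 = st i := sorry

theorem Zf_neg (θ : ℝ) (F : Finset (Γ × ℕ)) (st : Γ × ℕ → ℝ) :
    T.Zf θ F (fun j => -st j) = T.Zf θ F st := sorry

theorem mag_neg (θ : ℝ) (F : Finset (Γ × ℕ)) (st : Γ × ℕ → ℝ) (v : Γ) :
    T.mag θ F (fun j => -st j) v = -T.mag θ F st v := sorry

theorem Zf_update (θ : ℝ) {F : Finset (Γ × ℕ)} {st : Γ × ℕ → ℝ} (ha : Adm st) {i : Γ × ℕ}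
    (hi : i ∈ F) (hz : st i = 0) (τ : ℝ) :
    T.Zf θ F (Function.update st i τ) = T.Zf θ F st * (1 + T.mag θ F st i.1 * τ) := sorry

theorem nu_update (θ : ℝ) {F : Finset (Γ × ℕ)} {st : Γ × ℕ → ℝ} (ha : Adm st) {i : Γ × ℕ}
    (hi : i ∈ F) (hz : st i = 0) {τ : ℝ} (hτ : |τ| ≤ 1 / 2) {f : (Γ → ℝ) → ℝ}
    (hf : Continuous f) :
    T.nu θ F (Function.update st i τ) f = T.nu θ F st f +
      (T.nu θ F st (fun σ => f σ * σ i.1) - T.nu θ F st f * T.mag θ F st i.1) *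
        (τ / (1 + T.mag θ F st i.1 * τ)) := sorry

theorem Ec_W_union (θ : ℝ) {v : Γ} {F₁ F₂ : Finset (Γ × ℕ)} (h : T.Sep v F₁ F₂)
    (st : Γ × ℕ → ℝ) {s : ℝ} (hs : s = 1 ∨ s = -1) :
    T.Ec θ v s (W (F₁ ∪ F₂) st) = T.Ec θ v s (W F₁ st) * T.Ec θ v s (W F₂ st) := sorry

theorem Zf_union (θ : ℝ) {v : Γ} {F₁ F₂ : Finset (Γ × ℕ)} (h : T.Sep v F₁ F₂)
    {st : Γ × ℕ → ℝ} (ha : Adm st) :
    T.Zf θ (F₁ ∪ F₂) st =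
      T.Zf θ F₁ st * T.Zf θ F₂ st * (1 + T.mag θ F₁ st v * T.mag θ F₂ st v) := sorry

theorem mag_union (θ : ℝ) {v : Γ} {F₁ F₂ : Finset (Γ × ℕ)} (h : T.Sep v F₁ F₂)
    {st : Γ × ℕ → ℝ} (ha : Adm st) :
    T.mag θ (F₁ ∪ F₂) st v * (1 + T.mag θ F₁ st v * T.mag θ F₂ st v) =
      T.mag θ F₁ st v + T.mag θ F₂ st v := sorry

theorem mag_step {θ : ℝ} (h0 : 0 ≤ θ) (h1 : θ ≤ 1) {F : Finset (Γ × ℕ)} {st : Γ × ℕ → ℝ}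
    (ha : Adm st) {v : Γ} {a : Fin d} (hF : ∀ j ∈ F, j.1 ∈ T.side (v * T.s a) a) :
    T.mag θ F st v = θ * T.mag θ F st (v * T.s a) := sorry

theorem sep_Fs (F : Finset (Γ × ℕ)) (v : Γ) (a : Fin d) :
    T.Sep v (T.Fs F (v, a)) (T.Fs F (v * T.s a, a)) ∧
      T.Fs F (v, a) ∪ T.Fs F (v * T.s a, a) = F := sorry

theorem cons {θ : ℝ} (h0 : 0 ≤ θ) (h1 : θ ≤ 1) (F : Finset (Γ × ℕ)) {st : Γ × ℕ → ℝ}
    (ha : Adm st) : T.Cons θ (T.mag θ F st) (T.cav θ F st) := sorry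

end TG

end Vale.Agent.P161
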