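import Mathlib
import Vale.Agent.P161.IsingB

/-!
Covariance formula, equivariance, cylinder estimate.  `z± = Ec θ v (±1) (W F st)`.
`cov_eq`: put `δ v u = Ec v 1 (σ_u W)/z₊ - Ec v (-1) (σ_u W)/z₋` (for the full `F`); then
`cov = (1 - m_v²) δ/2`, `δ v v = 2`.  For `u ∈ side (v s_c) c` the factor of `W` on `side v c`
cancels (`Ec_mul`), `Ec_step` gives `δ v u = slope θ r * δ' `, where `r = cav (v s_c, c)` and `δ'`
is the same quantity at `v s_c` for `Fs F (v s_c, c)`; and `δ' = δ (v s_c) u` again by `Ec_mul`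
at `v s_c` (the factor on `side v c = br (v s_c) {c}` cancels).  Induct on `dist v u`.
With `p, q = z±` at `v s_c` and `A, B` the two conditional means:
`((1+θ)pA+(1-θ)qB)/((1+θ)p+(1-θ)q) - ((1-θ)pA+(1+θ)qB)/((1-θ)p+(1+θ)q) = (A-B) slope θ r`,
`r = (p-q)/(p+q)`.
`nu_cyl`: `|∏ a_v - ∏ b_v| ≤ ∑ |a_v - b_v|` for numbers in `[0,1]`, and `|σ - m| = 1 - σ m`.
-/

namespace Vale.Agent.P161

open MeasureTheory Finset Filter
open scoped Classical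

namespace TG

variable {d : ℕ} {Γ : Type} [Group Γ] (T : TG d Γ)

theorem cov_eq {θ : ℝ} (h0 : 0 ≤ θ) (h1 : θ ≤ 1) (F : Finset (Γ × ℕ)) {st : Γ × ℕ → ℝ}
    (ha : Adm st) (v u : Γ) :
    T.nu θ F st (fun σ => σ v * σ u) - T.mag θ F st v * T.mag θ F st u =
      T.Cf θ (T.mag θ F st) (T.cav θ F st) v u := sorry

theorem abs_Cf_le {θ : ℝ} (h0 : 0 ≤ θ) (h1 : θ ≤ 1) {m : Γ → ℝ} {r : Γ × Fin d → ℝ}
    (hm : ∀ v, |m v| ≤ 1) (hr : ∀ e, |r e| ≤ 1) (v u : Γ) :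
    |T.Cf θ m r v u| ≤ θ ^ T.dist v u := sorry

theorem measurable_Cf {Ω : Type} [MeasurableSpace Ω] (θ : ℝ) {m : Ω → Γ → ℝ}
    {r : Ω → Γ × Fin d → ℝ} (hm : ∀ v, Measurable fun ω => m ω v)
    (hr : ∀ e, Measurable fun ω => r ω e) (v u : Γ) :
    Measurable fun ω => T.Cf θ (m ω) (r ω) v u := sorry

theorem mag_aut (θ : ℝ) (φ : T.cay ≃g T.cay) {F F' : Finset (Γ × ℕ)}
    (hF : ∀ u k, (φ u, k) ∈ F' ↔ (u, k) ∈ F) {st st' : Γ × ℕ → ℝ}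
    (hst : ∀ u k, st' (φ u, k) = st (u, k)) (v : Γ) :
    T.mag θ F' st' (φ v) = T.mag θ F st v := sorry

theorem nu_cyl (θ : ℝ) (F : Finset (Γ × ℕ)) {st : Γ × ℕ → ℝ} (ha : Adm st) (D : Finset Γ)
    (η : Γ → ℤˣ) :
    |T.nu θ F st (cyl D η) - cyl D η (T.mag θ F st)| ≤ ∑ v ∈ D, (1 - T.mag θ F st v ^ 2) := sorry

end TG

end Vale.Agent.P161
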