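import Mathlib
import Vale.Agent.P161.IsingC

/-!
The finite process.
* `fixed_local`: strong induction on the number of events of `F` strictly earlier than the
  given one (`(F.filter fun j => tm ω j < tm ω i).card`), or on a minimal counterexample in time.
* `proc_fixed`: the iterates `stepP^[n] 0` and `stepP^[n+1] 0` agree at `i` as soon as
  `n > card {j ∈ F | tm j < tm i}` (same induction); for `i ∈ F` this card is `< F.card`.
* admissibility: every value of `stepP` on an admissible state is `amp * Yq z w` with `|z| ≤ 1/2`.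
* `mP_aut`: conjugate `stepP` by the automorphism (`mag_aut`), or use `fixed_local`-style uniqueness.
* `tele`: induction on the number of events of `G` with time in `[s,t)`; remove the latest one
  `i`: `H (Lt ω t) = H (Le ω (tm ω i))`, and use the statement for `t := tm ω i`.
-/

namespace Vale.Agent.P161

open MeasureTheory Finset Filter
open scoped Classical

section basic

variable {Γ : Type}

theorem measurable_lab (i : Γ × ℕ) : Measurable fun ω : Om Γ => lab ω i := sorry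

theorem measurable_coin (i : Γ × ℕ) : Measurable fun ω : Om Γ => coin ω i := sorry

theorem measurable_tm (i : Γ × ℕ) : Measurable fun ω : Om Γ => tm ω i := sorry

theorem tm_nonneg (ω : Om Γ) (i : Γ × ℕ) : 0 ≤ tm ω i := sorry

theorem Adm.maskS {ι : Type} {st : ι → ℝ} (h : Adm st) (A : Set ι) : Adm (maskS A st) := sorry

theorem adm_st0 (t : ℝ) (ω : Om Γ) : Adm (st0 t ω) := sorry

theorem measurable_st0 (t : ℝ) : Measurable (st0 t : Om Γ → Γ × ℕ → ℝ) := sorry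

theorem BdA.comp {ι Ω : Type} [MeasurableSpace Ω] {G : (ι → ℝ) → ℝ} (hG : BdA G)
    {st : Ω → ι → ℝ} (hst : Measurable st) (ha : ∀ ω, Adm (st ω)) : Bd fun ω => G (st ω) := sorry

theorem lab_update_coin (ω : Om Γ) (i j : Γ × ℕ) (x : unitInterval) :
    lab (Function.update ω (i.1, i.2, true) x) j = lab ω j := sorry

theorem tm_update_coin (ω : Om Γ) (i : Γ × ℕ) (x : unitInterval) :
    tm (Function.update ω (i.1, i.2, true) x) = tm ω := sorry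

theorem coin_update_self (ω : Om Γ) (i : Γ × ℕ) (x : unitInterval) :
    coin (Function.update ω (i.1, i.2, true) x) i = x := sorry

theorem coin_update_ne (ω : Om Γ) {i j : Γ × ℕ} (h : j ≠ i) (x : unitInterval) :
    coin (Function.update ω (i.1, i.2, true) x) j = coin ω j := sorry

theorem tele (G : Finset (Γ × ℕ)) (ω : Om Γ) (hinj : Function.Injective (tm ω))
    (H : Set (Γ × ℕ) → ℝ) (hH : ∀ A A', (∀ j ∈ G, j ∈ A ↔ j ∈ A') → H A = H A') {s t : ℝ}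
    (hst : s ≤ t) :
    H (Lt ω t) - H (Lt ω s) = ∑ i ∈ G, if s ≤ tm ω i ∧ tm ω i < t then
      H (Le ω (tm ω i)) - H (Lt ω (tm ω i)) else 0 := sorry

end basic

namespace TG

variable {d : ℕ} {Γ : Type} [Group Γ] (T : TG d Γ)

theorem adm_proc (θ : ℝ) (F : Finset (Γ × ℕ)) (ω : Om Γ) : Adm (T.proc θ F ω) := sorry

theorem adm_St (θ : ℝ) (F : Finset (Γ × ℕ)) (t : ℝ) (ω : Om Γ) : Adm (T.St θ F t ω) := sorry

theorem proc_fixed (θ : ℝ) (F : Finset (Γ × ℕ)) (ω : Om Γ) :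
    T.stepP θ F ω (T.proc θ F ω) = T.proc θ F ω := sorry

theorem proc_not_mem (θ : ℝ) {F : Finset (Γ × ℕ)} (ω : Om Γ) {i : Γ × ℕ} (hi : i ∉ F) :
    T.proc θ F ω i = 0 := sorry

theorem proc_mem (θ : ℝ) {F : Finset (Γ × ℕ)} (ω : Om Γ) {i : Γ × ℕ} (hi : i ∈ F) :
    T.proc θ F ω i = amp (lab ω i) *
      Yq (amp (lab ω i) * T.mP θ F (tm ω i) ω i.1) (coin ω i) := sorry

/-- the state before time `t` only depends on the events before time `t` -/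
theorem St_local (θ : ℝ) (F : Finset (Γ × ℕ)) (t : ℝ) {ω ω' : Om Γ}
    (h : ∀ j ∈ F, (tm ω j < t ∨ tm ω' j < t) → lab ω j = lab ω' j ∧ coin ω j = coin ω' j) :
    T.St θ F t ω = T.St θ F t ω' := sorry

theorem St_nonpos (θ : ℝ) (F : Finset (Γ × ℕ)) {t : ℝ} (ht : t ≤ 0) (ω : Om Γ) :
    T.St θ F t ω = 0 := sorry

theorem St_at (θ : ℝ) (F : Finset (Γ × ℕ)) (ω : Om Γ) (i : Γ × ℕ) :
    T.St θ F (tm ω i) ω i = 0 := sorry

theorem mask_Le (θ : ℝ) (F : Finset (Γ × ℕ)) {ω : Om Γ} (hinj : Function.Injective (tm ω))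
    (i : Γ × ℕ) :
    maskS (Le ω (tm ω i)) (T.proc θ F ω) =
      Function.update (T.St θ F (tm ω i) ω) i (T.proc θ F ω i) := sorry

theorem measurable_proc (θ : ℝ) (F : Finset (Γ × ℕ)) : Measurable (T.proc θ F) := sorry

theorem measurable_St (θ : ℝ) (F : Finset (Γ × ℕ)) :
    Measurable fun p : ℝ × Om Γ => T.St θ F p.1 p.2 := sorry

theorem measurable_mP (θ : ℝ) (F : Finset (Γ × ℕ)) (v : Γ) :
    Measurable fun p : ℝ × Om Γ => T.mP θ F p.1 p.2 v := sorry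

theorem measurable_rP (θ : ℝ) (F : Finset (Γ × ℕ)) (e : Γ × Fin d) :
    Measurable fun p : ℝ × Om Γ => T.rP θ F p.1 p.2 e := sorry

theorem measurable_CP (θ : ℝ) (F : Finset (Γ × ℕ)) (v u : Γ) :
    Measurable fun p : ℝ × Om Γ => T.CP θ F p.1 p.2 v u := sorry

theorem measurable_Kf (θ θ' : ℝ) (F F' : Finset (Γ × ℕ)) (v : Γ) (i : Γ × ℕ) :
    Measurable fun p : ℝ × Om Γ => T.Kf θ θ' F F' v i p.1 p.2 := sorry

theorem abs_mP_le (θ : ℝ) (F : Finset (Γ × ℕ)) (t : ℝ) (ω : Om Γ) (v : Γ) :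
    |T.mP θ F t ω v| ≤ 1 := sorry

theorem abs_rP_le (θ : ℝ) (F : Finset (Γ × ℕ)) (t : ℝ) (ω : Om Γ) (e : Γ × Fin d) :
    |T.rP θ F t ω e| ≤ 1 := sorry

theorem bd_mP (θ : ℝ) (F : Finset (Γ × ℕ)) (t : ℝ) (v : Γ) : Bd fun ω => T.mP θ F t ω v := sorry

theorem bd_rP (θ : ℝ) (F : Finset (Γ × ℕ)) (t : ℝ) (e : Γ × Fin d) :
    Bd fun ω => T.rP θ F t ω e := sorry

theorem abs_CP_le {θ : ℝ} (h0 : 0 ≤ θ) (h1 : θ ≤ 1) (F : Finset (Γ × ℕ)) (t : ℝ) (ω : Om Γ)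
    (v u : Γ) : |T.CP θ F t ω v u| ≤ θ ^ T.dist v u := sorry

theorem Kf_nonneg (θ θ' : ℝ) (F F' : Finset (Γ × ℕ)) (v : Γ) (i : Γ × ℕ) (t : ℝ) (ω : Om Γ) :
    0 ≤ T.Kf θ θ' F F' v i t ω := sorry

theorem Kf_le {θ θ' β : ℝ} (h0 : 0 ≤ θ) (h1 : θ ≤ β) (h0' : 0 ≤ θ') (h1' : θ' ≤ β) (hβ : β ≤ 1)
    (F F' : Finset (Γ × ℕ)) (v : Γ) (i : Γ × ℕ) (t : ℝ) (ω : Om Γ) :
    T.Kf θ θ' F F' v i t ω ≤ 160 * (β ^ 2) ^ T.dist v i.1 := sorry

theorem cons_P {θ : ℝ} (h0 : 0 ≤ θ) (h1 : θ ≤ 1) (F : Finset (Γ × ℕ)) (t : ℝ) (ω : Om Γ) :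
    T.Cons θ (T.mP θ F t ω) (T.rP θ F t ω) := sorry

theorem mP_empty (θ t : ℝ) (ω : Om Γ) (v : Γ) : T.mP θ ∅ t ω v = 0 := sorry

theorem mP_nonpos (θ : ℝ) (F : Finset (Γ × ℕ)) {t : ℝ} (ht : t ≤ 0) (ω : Om Γ) (v : Γ) :
    T.mP θ F t ω v = 0 := sorry

theorem mem_FB {v : Γ} {n : ℕ} {i : Γ × ℕ} : i ∈ T.FB v n ↔ T.dist v i.1 ≤ n ∧ i.2 < n := sorry

theorem St_aut (θ : ℝ) (φ : T.cay ≃g T.cay) {F F' : Finset (Γ × ℕ)}
    (hF : ∀ u k, (φ u, k) ∈ F' ↔ (u, k) ∈ F) (t : ℝ) (ω : Om Γ) (u : Γ) (k : ℕ) :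
    T.St θ F' t (act φ.toEquiv ω) (φ u, k) = T.St θ F t ω (u, k) := sorry

theorem mP_aut (θ : ℝ) (φ : T.cay ≃g T.cay) (v : Γ) (n : ℕ) (t : ℝ) (ω : Om Γ) (u : Γ) :
    T.mP θ (T.FB (φ v) n) t (act φ.toEquiv ω) (φ u) = T.mP θ (T.FB v n) t ω u := sorry

theorem mP_mulLeft (θ : ℝ) (x v : Γ) (n : ℕ) (t : ℝ) (ω : Om Γ) (u : Γ) :
    T.mP θ (T.FB (x * v) n) t (act (Equiv.mulLeft x) ω) (x * u) = T.mP θ (T.FB v n) t ω u := sorry

theorem rP_mulLeft (θ : ℝ) (x v : Γ) (n : ℕ) (t : ℝ) (ω : Om Γ) (u : Γ) (a : Fin d) :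
    T.rP θ (T.FB (x * v) n) t (act (Equiv.mulLeft x) ω) (x * u, a) =
      T.rP θ (T.FB v n) t ω (u, a) := sorry

end TG

end Vale.Agent.P161
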