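import Mathlib
import Vale.Agent.P161.Proc

/-!
Martingale property and isometry.

For `i = (u,k)`, `X A ω = nu θ F (maskS A (proc θ F ω)) f`.  With injective times (`ae_tm_inj`),
`mask_Le`, `nu_update`, `proc_mem` give the jump
`X (Le (tm i)) - X (Lt (tm i)) = (cov at time tm i) * kap α (mP (tm i) u) (coin i)`, `α = amp (lab i)`,
if `i ∈ F`, and `0` otherwise (`proc_not_mem`, `St_at`); for `f = σ_v` the covariance is `CP` (`cov_eq`).
`jump_zero`: `integral_update` at the coin coordinate `(u,k,true)`; the state before `tm i`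
does not change (`St_local`), and `integral_kap`.
`iso_orth`, `iso2`: apply `tele` to `H A = (X A - X' A)²` (and to `D s * (X A - X' A)`), with
`G = F ∪ F'`; `(D + J)² - D² = 2 D J + J²`, the cross term has zero mean, `jump_sq_le`.
`time_bound`: let `K r ω` be the state functional.  By `integral_update'` at the label coordinate
`(u,k,false)`, the left side is `∫ x, 1{s ≤ k+x < t} amp x² ∫ K (k+x) (update ω label x)`; only
`x ≤ 1/2` matters.  On the event `lab ω i ≥ x`, `K (k+x) ω = K (k+x) (update ω label x)` by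
`St_local`, this event has probability `≥ 1/2` and is independent of `K (k+x) (update ω label x)`
(`integral_mul_indep` with `A = {label}ᶜ`), so `∫ K (k+x) (update ..) ≤ 2 ∫ K (k+x)`.
In `iso2` sum over `u ∈ S` inside the `x` integral, and the intervals `[k,k+1) ∩ [s,t)` are disjoint.
-/

namespace Vale.Agent.P161

open MeasureTheory Finset Filter
open scoped Classical

namespace TG

variable {d : ℕ} {Γ : Type} [Group Γ] (T : TG d Γ)

theorem mart_nu (θ : ℝ) (F : Finset (Γ × ℕ)) (t : ℝ) {f : (Γ → ℝ) → ℝ} (hf : Continuous f) :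
    ∫ ω, T.nu θ F (T.St θ F t ω) f ∂PO Γ = T.Ex θ f := sorry

theorem iso_orth (θ θ' : ℝ) (F F' : Finset (Γ × ℕ)) (v : Γ) {s t : ℝ} (hst : s ≤ t) :
    ∫ ω, ((T.mP θ F t ω v - T.mP θ' F' t ω v) - (T.mP θ F s ω v - T.mP θ' F' s ω v)) ^ 2 ∂PO Γ =
      ∫ ω, (T.mP θ F t ω v - T.mP θ' F' t ω v) ^ 2 ∂PO Γ -
        ∫ ω, (T.mP θ F s ω v - T.mP θ' F' s ω v) ^ 2 ∂PO Γ := sorry

theorem iso_mono (θ θ' : ℝ) (F F' : Finset (Γ × ℕ)) (v : Γ) {s t : ℝ} (hst : s ≤ t) :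
    ∫ ω, (T.mP θ F s ω v - T.mP θ' F' s ω v) ^ 2 ∂PO Γ ≤
      ∫ ω, (T.mP θ F t ω v - T.mP θ' F' t ω v) ^ 2 ∂PO Γ := sorry

theorem iso2 {θ θ' : ℝ} (h0 : 0 ≤ θ) (h1 : θ ≤ 1) (h0' : 0 ≤ θ') (h1' : θ' ≤ 1)
    (F F' : Finset (Γ × ℕ)) (v : Γ) {s t a : ℝ} (hst : s ≤ t)
    (ha : ∀ (k : ℕ) (x : unitInterval), s ≤ k + (x : ℝ) → k + (x : ℝ) < t → amp x ≤ a)
    (S : Finset Γ) (hS : ∀ i, i ∈ F ∨ i ∈ F' → i.1 ∈ S) {B : ℝ → ℝ}
    (hB : IntervalIntegrable B volume s t)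
    (hK : ∀ (k : ℕ) (r : ℝ), s ≤ r → r < t → (k : ℝ) ≤ r → r < k + 1 →
      ∑ u ∈ S, ∫ ω, T.Kf θ θ' F F' v (u, k) r ω ∂PO Γ ≤ B r)
    (hB0 : ∀ r, 0 ≤ B r) :
    ∫ ω, (T.mP θ F t ω v - T.mP θ' F' t ω v) ^ 2 ∂PO Γ ≤
      ∫ ω, (T.mP θ F s ω v - T.mP θ' F' s ω v) ^ 2 ∂PO Γ + 2 * a ^ 2 * ∫ r in s..t, B r := sorry

end TG

end Vale.Agent.P161
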