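import Mathlib
import Vale.Agent.P161.Iso

/-!
Assembly.  `Φ j ω v = mP (θ j) (FB v (n j)) (t j) ω v`, and
`Ψ ω v = if ∀ᶠ j, 0 < Φ j ω v then 1 else -1`.  Equivariance is `mP_aut`.
The laws of `Φ j · v` do not depend on `v` (`mP_mulLeft`, `integral_act`).
If exactly one of `a, b` is positive then `1 ≤ (1 - a²) + (a - b)²`, so the probability of a sign
change after step `j` is at most the tail of a convergent series; off that event
`Ψ ω v` is the sign of `Φ j ω v`, and `|sign a - a| ≤ 1 - a²`.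
The indicator of the cylinder is `cyl D η (Ψ ω)`;
`|cyl D η σ - cyl D η m| ≤ ∑ |σ v - m v|` for values in `[-1,1]`; use `nu_cyl` and `mart_nu` for the
single set of events `FB 1 (n j)`.
-/

namespace Vale.Agent.P161

open MeasureTheory Finset Filter
open scoped Classical

namespace TG

variable {d : ℕ} {Γ : Type} [Group Γ] (T : TG d Γ)

theorem assembly (θ : ℕ → ℝ) (n : ℕ → ℕ) (t : ℕ → ℝ)
    (h1 : Summable fun j => ∫ ω, (1 - T.mP (θ j) (T.FB 1 (n j)) (t j) ω 1 ^ 2) ∂PO Γ)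
    (h2 : Summable fun j => ∫ ω, (T.mP (θ j) (T.FB 1 (n j)) (t j) ω 1 -
      T.mP (θ (j + 1)) (T.FB 1 (n (j + 1))) (t (j + 1)) ω 1) ^ 2 ∂PO Γ)
    (h3 : ∀ v, Tendsto (fun j => ∫ ω, (T.mP (θ j) (T.FB v (n j)) (t j) ω v -
      T.mP (θ j) (T.FB 1 (n j)) (t j) ω v) ^ 2 ∂PO Γ) atTop (nhds 0)) :
    ∃ Ψ : Om Γ → Γ → ℤˣ, Measurable Ψ ∧
      (∀ (φ : T.cay ≃g T.cay) (ω : Om Γ), Ψ (act φ.toEquiv ω) = fun v => Ψ ω (φ.symm v)) ∧
      ∀ (D : Finset Γ) (η : Γ → ℤˣ), Tendsto (fun j => T.Ex (θ j) (cyl D η)) atTop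
        (nhds ((PO Γ) {ω | ∀ v ∈ D, Ψ ω v = η v}).toReal) := sorry

end TG

end Vale.Agent.P161
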