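import Mathlib
import Vale.Agent.P161.IsingA

/-!
The free Ising measure on the Cayley tree.
`Ex_cyl`: induction on `D.card`.  Fix `o ∈ D` and take `u ∈ D` farthest from `o`; if `u ≠ o` let
`p = u s_a` be its neighbour towards `o` (`exists_dir`, `connected_parent`).  Then
`D.erase u ⊆ side p a`, it is again closed under parents (it is convenient to prove the formula
for sets `D ∋ o` closed under parents towards `o`, with the product written over `D.erase o`,
or to keep the edge form), `u ∈ side (p s_a) a`, and with `Ex_root` at `p`, `Ec_mul`, `Ec_step`,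
`Ec_congr`, the factor of `u` is `(1 + θ η_p η_u)/2`.  The only new edge is `s(u,p)`.
`ising_exists`: `μ = (1/2) map (+chi) + (1/2) map (-chi)` after converting signs to `ℤˣ`;
`∫ f dμ = Ex θ f`; `Ec v s (σ_u) = s θ^(dist v u)` by induction with `Ec_step`.
`ising_unique`: both measures agree on cylinders over balls (`ball_connected`), a cylinder over a
finite set is a finite disjoint union of those (`exists_ball`), and the cylinders
form a generating π-system (or compare the finite-dimensional marginals: `IsProjectiveLimit.unique`,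
measures on a finite type agree if they agree on singletons).
-/

namespace Vale.Agent.P161

open MeasureTheory Finset Filter
open scoped Classical

theorem measurableSet_units (A : Set ℤˣ) : MeasurableSet A := sorry

theorem measurableSet_cylset {Γ : Type} (D : Finset Γ) (η : Γ → ℤˣ) :
    MeasurableSet {σ : Γ → ℤˣ | ∀ v ∈ D, σ v = η v} := sorry

namespace TG

variable {d : ℕ} {Γ : Type} [Group Γ] (T : TG d Γ)

theorem Ex_cyl {θ : ℝ} (h0 : 0 ≤ θ) (h1 : θ ≤ 1) {D : Finset Γ}
    (hD : (T.cay.induce (D : Set Γ)).Connected) (η : Γ → ℤˣ) :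
    T.Ex θ (cyl D η) = 1 / 2 * ∏ e ∈ D.sym2 with e ∈ T.cay.edgeSet,
      (1 + θ * Sym2.mul (e.map fun v => ((η v : ℤ) : ℝ))) / 2 := sorry

theorem ising_exists {θ : ℝ} (h0 : 0 ≤ θ) (h1 : θ ≤ 1) :
    ∃ μ : Measure (Γ → ℤˣ), IsFreeIsing T.cay θ μ ∧ (∫ σ, ((σ 1 : ℤ) : ℝ) ∂μ = 0) ∧
      ∀ x : Γ, ∫ σ, ((σ 1 : ℤ) : ℝ) * ((σ x : ℤ) : ℝ) ∂μ = θ ^ T.len x := sorry

theorem ising_unique {θ : ℝ} {μ μ' : Measure (Γ → ℤˣ)} (h : IsFreeIsing T.cay θ μ)
    (h' : IsFreeIsing T.cay θ μ') : μ = μ' := sorry

end TG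

end Vale.Agent.P161
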