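import Mathlib
import Vale.Agent.P161.Proc

/-!
The law of the state, and localization.

`law`: hybrid telescoping.  For a set of events `A` let `h A ω = A.piecewise (St θ F t ω) (st0 t ω)`
and `H A ω = G (h A ω) * Zf θ F (h A ω) / Zf θ F (maskS A (St θ F t ω))`.  Apply `tele` on `[0,t)`
(if `t ≤ 0` both sides are `G 0`): `H (Lt t) = G (St t)` and `H (Lt 0) = G (st0) Zf (st0)`.
At an event `i ∈ F` with `tm i < t`, resample its coin (`integral_update`, `St_local`, `mask_Le`,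
`Zf_update`): the new denominator is `Zf (St (tm i)) * (1 + z Y)` with `z = α m`, and
`integral_Yq` applied to `y ↦ G (upd (α y)) Zf (upd (α y)) / (Zf * (1 + z y))` shows that the
increment has zero mean.

`tE_one`: `integral_Ex`; for fixed `σ`, `∫ W F (st0) σ = 1` by induction on `F`
(`integral_update` at the coin of the new event, `∫ (2w-1) = 0`).

`loc`: by `law`, `∫ (1 - m²) = ∫ Zf (1-m²)` on `st0`, and `Zf (1-m²) = 2 z₊ z₋/(z₊+z₋) ≤ √(z₊ z₋)`
with `z± = Ec θ v (±1) (W F st)`.  Removing one event `(v,k)` from `F` (`Ec_W_union`, `Sep` with the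
singleton, `C = ∅`) multiplies `∫ √(z₊ z₋)` by `∫ √(1-τ²) ≤ 1 - ∫ τ²/2 =: c < 1`
(`integral_mul_indep`); finally `√(z₊ z₋) ≤ Zf` and `tE_one`.
-/

namespace Vale.Agent.P161

open MeasureTheory Finset Filter
open scoped Classical

namespace TG

variable {d : ℕ} {Γ : Type} [Group Γ] (T : TG d Γ)

theorem law (θ : ℝ) (F : Finset (Γ × ℕ)) (t : ℝ) {G : (Γ × ℕ → ℝ) → ℝ} (hG : BdA G)
    (dG : DependsOn G (F : Set (Γ × ℕ))) :
    ∫ ω, G (T.St θ F t ω) ∂PO Γ = T.tE θ F t G := sorry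

theorem tE_one (θ : ℝ) (F : Finset (Γ × ℕ)) (t : ℝ) : T.tE θ F t (fun _ => 1) = 1 := sorry

theorem loc : ∃ c : ℝ, 0 ≤ c ∧ c < 1 ∧ ∀ (θ : ℝ) (F : Finset (Γ × ℕ)) (t : ℝ) (v : Γ) (K : ℕ),
    (K : ℝ) ≤ t → (∀ k < K, (v, k) ∈ F) →
      ∫ ω, (1 - T.mP θ F t ω v ^ 2) ∂PO Γ ≤ c ^ K := sorry

end TG

end Vale.Agent.P161
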