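import Mathlib
import Vale.Agent.P161.Defs

/-!
Every `d`-regular tree is a Cayley tree.  No other file of the project is needed.

Suggested route.  (1) Words `Wd = {l : List (Fin d) // l.IsChain (· ≠ ·)}`, `stp a : Equiv.Perm Wd` the
involution that deletes the head if it is `a` and prepends `a` otherwise;
`Γ = Subgroup.closure (range stp)`, `len g = (g⁻¹ nil).length`.  Every `g ∈ Γ` equals the product of
the `stp` along the word `g nil` (closure induction), so `g ↦ g⁻¹ nil` is a bijection `Γ ≃ Wd` and
`cay` is the graph `w ~ stp a w`.
(2) Fix a root `o` of `G`.  For each vertex `v` choose a bijection `Fin d ≃ neighborSet v`;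
define `π : List (Fin d) → V` together with bijections recursively so that the letter that leads
back to the parent is the head of the word (compose with a swap).  `G.dist o (π w) = w.length`
by induction (`IsTree`/`IsAcyclic`: a vertex has a unique neighbour closer to `o`), which gives
injectivity; surjectivity by induction on the distance; adjacency both ways by counting neighbours.
Alternative route: build a proper edge colouring first, take `Γ` inside `Equiv.Perm V` and
`len g = G.dist o (g⁻¹ o)`.
-/

namespace Vale.Agent.P161

theorem exists_model {d : ℕ} {V : Type} (G : SimpleGraph V) (hG : G.IsTree)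
    (hd : ∀ v, (G.neighborSet v).ncard = d) (h3 : 3 ≤ d) :
    ∃ (Γ : Type) (_ : Group Γ) (T : TG d Γ), Nonempty (T.cay ≃g G) := sorry

end Vale.Agent.P161
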