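import Mathlib
import Vale.Agent.P161.Iso

/-!
Finite speed of propagation when `(d-1) θ² < 1`.

Choose `κ₁ < κ` and `lam > 1` with `θ² < κ₁`, `(d-1) κ lam < 1`.
`kern_g`: for random slopes `0 ≤ B, B' ≤ θ` with `E (B e - B' e)² ≤ β lam^(dist v e.1)`,
by induction on `k = dist x u` for all `x` (`g_side`):
`E (g B x u - g B' x u)² ≤ c β lam^(dist v x) (κ lam)^k`, from
`(bγ - b'γ')² ≤ (1+ε) θ² (γ-γ')² + (1+1/ε) (b-b')² θ^(2(k-1))` with `(1+ε) θ² ≤ κ₁`.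
Main step: fix `F, F', v₀, R`, `ψ w = lam^(-(R - dist v₀ w))` (truncated subtraction), so that
`ψ w ≤ lam^(dist v w) ψ v`, `ψ ≥ lam^(-R)`, `ψ u = 1` when `dist v₀ u ≥ R`.
Let `a r = ⨆ v, E (mP F r v - mP F' r v)² / ψ v`.  `cons_lip`, `slope_lip` and `kern_g` bound
`∑ u, E Kf (u,k) r ≤ L (a r + 1) ψ v` (`sum_pow_dist_le`; an event in exactly one of `F, F'` with
`k ≤ t` has `dist v₀ u > R`, so there `Kf ≤ 4 θ^(2 dist) ≤ 4 (θ² lam)^dist ψ v`).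
`iso_mono`, `iso2` (with `a = 1/2`, constant `B`) and `gronwall` finish; `ρ = 1/lam`.
-/

namespace Vale.Agent.P161

open MeasureTheory Finset Filter
open scoped Classical

namespace TG

variable {d : ℕ} {Γ : Type} [Group Γ] (T : TG d Γ)

theorem propagation (hd : 3 ≤ d) {θ : ℝ} (h0 : 0 ≤ θ) (h1 : ((d : ℝ) - 1) * θ ^ 2 < 1) :
    ∃ ρ : ℝ, 0 < ρ ∧ ρ < 1 ∧ ∀ t : ℝ, ∃ A : ℝ, 0 ≤ A ∧ ∀ (F F' : Finset (Γ × ℕ)) (v : Γ) (R : ℕ),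
      (∀ i : Γ × ℕ, T.dist v i.1 ≤ R → (i.2 : ℝ) ≤ t → (i ∈ F ↔ i ∈ F')) →
      ∀ r ≤ t, ∫ ω, (T.mP θ F r ω v - T.mP θ F' r ω v) ^ 2 ∂PO Γ ≤ A * ρ ^ R := sorry

/-- corollary for balls of events -/
theorem propagation_FB (hd : 3 ≤ d) {θ : ℝ} (h0 : 0 ≤ θ) (h1 : ((d : ℝ) - 1) * θ ^ 2 < 1) :
    ∃ ρ : ℝ, 0 < ρ ∧ ρ < 1 ∧ ∀ (t : ℝ) (x y v : Γ), ∃ (A : ℝ) (n₀ : ℕ), 0 ≤ A ∧
      ∀ n m : ℕ, n₀ ≤ n → n ≤ m → ∀ r ≤ t,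
        ∫ ω, (T.mP θ (T.FB x n) r ω v - T.mP θ (T.FB y m) r ω v) ^ 2 ∂PO Γ ≤ A * ρ ^ n := sorry

end TG

end Vale.Agent.P161
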