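import Mathlib

namespace Vale.Agent.P161

open MeasureTheory

open Classical in
/-- `μ` is the free zero-field Ising measure with parameter `θ` on the graph `G`:
a probability measure on `{-1,1}^V` giving each configuration `η` on a finite connected
vertex set `D` the mass `(1/2) ∏_{{u,v} ∈ E(D)} (1 + θ η_u η_v)/2`. -/
def IsFreeIsing {V : Type} (G : SimpleGraph V) (θ : ℝ) (μ : Measure (V → ℤˣ)) : Prop :=
  IsProbabilityMeasure μ ∧
    ∀ D : Finset V, (G.induce (D : Set V)).Connected → ∀ η : V → ℤˣ,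
      μ {σ | ∀ v ∈ D, σ v = η v} =
        ENNReal.ofReal (1 / 2 * ∏ e ∈ D.sym2 with e ∈ G.edgeSet,
          (1 + θ * Sym2.mul (e.map fun v => ((η v : ℤ) : ℝ))) / 2)

/-- `μ` is a factor of IID: the law of `Φ U` for `U` iid uniform on `[0,1]`, with `Φ` measurable
and, for each automorphism `g`, almost surely `Φ (g U) = g (Φ U)`. -/
def IsFIID {V : Type} (G : SimpleGraph V) (μ : Measure (V → ℤˣ)) : Prop :=
  ∃ Φ : (V → unitInterval) → (V → ℤˣ), Measurable Φ ∧
    (Measure.infinitePi fun _ : V => (volume : Measure unitInterval)).map Φ = μ ∧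
    ∀ g : G ≃g G, ∀ᵐ U ∂(Measure.infinitePi fun _ : V => (volume : Measure unitInterval)),
      Φ (fun v => U (g.symm v)) = fun v => Φ U (g.symm v)

end Vale.Agent.P161
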