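import Mathlib
import Vale.Agent.P161.Prod

/-!
Transport along graph isomorphisms, and coding of the noise.
`isFIID_of_equivariant`: `Φ U = Ψ (fun p => f (U p.1) p.2)` with `f` from `exists_code`.
For `isFreeIsing_map` use `D' = D.map φ.symm`, `SimpleGraph.Iso.connected_iff` for the induced
graphs (`SimpleGraph.Iso.induce`), and `Finset.prod_bij` / `prod_nbij'` with `Sym2.map`.
-/

namespace Vale.Agent.P161

open MeasureTheory Finset Filter
open scoped Classical

theorem isFreeIsing_map {V V' : Type} {G : SimpleGraph V} {G' : SimpleGraph V'} (φ : G ≃g G')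
    {θ : ℝ} {μ : Measure (V → ℤˣ)} (h : IsFreeIsing G θ μ) :
    IsFreeIsing G' θ (μ.map fun σ v' => σ (φ.symm v')) := sorry

theorem isFIID_map {V V' : Type} {G : SimpleGraph V} {G' : SimpleGraph V'} (φ : G ≃g G')
    {μ : Measure (V → ℤˣ)} (h : IsFIID G μ) : IsFIID G' (μ.map fun σ v' => σ (φ.symm v')) := sorry

theorem map_map_symm {V V' : Type} {G : SimpleGraph V} {G' : SimpleGraph V'} (φ : G ≃g G')
    (μ : Measure (V' → ℤˣ)) :
    (μ.map fun σ v => σ (φ.symm.symm v)).map (fun σ v' => σ (φ.symm v')) = μ := sorry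

theorem isFIID_of_equivariant {Γ : Type} (G : SimpleGraph Γ) {Ψ : Om Γ → Γ → ℤˣ}
    (hΨ : Measurable Ψ)
    (he : ∀ (φ : G ≃g G) (ω : Om Γ), Ψ (act φ.toEquiv ω) = fun v => Ψ ω (φ.symm v)) :
    IsFIID G ((PO Γ).map Ψ) := sorry

end Vale.Agent.P161
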